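import Mathlib

/-!
# P130: product space, level functions, averages
-/

namespace Vale.Agent.P130

open MeasureTheory TopologicalSpace

section
variable {G : ℕ → Type}

/-- functions depending only on the coordinates `< n` -/
def Lev {β : Type} (n : ℕ) (ψ : (∀ i, G i) → β) : Prop :=
  ∀ x y : ∀ i, G i, (∀ i < n, x i = y i) → ψ x = ψ y

theorem Lev.mono {β : Type} {n m : ℕ} (h : n ≤ m) {ψ : (∀ i, G i) → β} (hψ : Lev n ψ) :
    Lev m ψ := fun x y hxy => hψ x y fun i hi => hxy i (lt_of_lt_of_le hi h)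

/-- the first `n` blocks -/
abbrev HH (G : ℕ → Type) (n : ℕ) : Type := ∀ i : Fin n, G i

variable [∀ n, AddCommGroup (G n)]

/-- extension by zero -/
def emb (n : ℕ) (a : HH G n) : ∀ i, G i := fun i => if h : i < n then a ⟨i, h⟩ else 0

theorem emb_lt {n : ℕ} (a : HH G n) {i : ℕ} (h : i < n) : emb n a i = a ⟨i, h⟩ := by
  simp [emb, h]

theorem emb_ge {n : ℕ} (a : HH G n) {i : ℕ} (h : n ≤ i) : emb n a i = 0 := by
  have : ¬ i < n := by omega
  simp [emb, this]

theorem emb_add {n : ℕ} (a b : HH G n) : emb n (a + b) = emb n a + emb n b := by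
  funext i
  by_cases h : i < n
  · simp [emb, h]
  · simp [emb, h]

theorem emb_zero {n : ℕ} : emb n (0 : HH G n) = 0 := by
  funext i
  by_cases h : i < n <;> simp [emb, h]

/-- restriction -/
def rs (n : ℕ) (x : ∀ i, G i) : HH G n := fun i => x i

theorem emb_rs {n : ℕ} {x : ∀ i, G i} (h : ∀ i, n ≤ i → x i = 0) : emb n (rs n x) = x := by
  funext i
  by_cases hi : i < n
  · rw [emb_lt _ hi]; rfl
  · rw [emb_ge _ (by omega), h i (by omega)]

theorem Lev.emb_rs {β : Type} {n : ℕ} {ψ : (∀ i, G i) → β} (h : Lev n ψ) (x : ∀ i, G i) :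
    ψ (emb n (rs n x)) = ψ x := by
  apply h
  intro i hi
  rw [emb_lt _ hi]
  rfl

theorem Lev.add_right {β : Type} {n : ℕ} {ψ : (∀ i, G i) → β} (h : Lev n ψ) (g : ∀ i, G i) :
    Lev n fun x => ψ (x + g) := by
  intro x y hxy
  apply h
  intro i hi
  rw [Pi.add_apply, Pi.add_apply, hxy i hi]

theorem Lev.sum_emb {n : ℕ} [∀ n, Fintype (G n)] {ψ : (∀ i, G i) → ℝ} (h : Lev n ψ)
    (x : ∀ i, G i) : ∑ a : HH G n, ψ (x + emb n a) = ∑ a : HH G n, ψ (emb n a) := by
  have h1 : ∀ a : HH G n, ψ (x + emb n a) = ψ (emb n (rs n x + a)) := by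
    intro a
    apply h
    intro i hi
    rw [Pi.add_apply, emb_lt _ hi, emb_lt _ hi]
    rfl
  simp_rw [h1]
  exact Equiv.sum_comp (Equiv.addLeft (rs n x)) (fun a => ψ (emb n a))

variable [∀ n, Fintype (G n)] [∀ n, TopologicalSpace (G n)] [∀ n, DiscreteTopology (G n)]
  [∀ n, MeasurableSpace (G n)] [∀ n, DiscreteMeasurableSpace (G n)]

/-- Haar probability measure on the product -/
noncomputable def mu (G : ℕ → Type) [∀ n, AddCommGroup (G n)] [∀ n, Fintype (G n)]
    [∀ n, TopologicalSpace (G n)] [∀ n, DiscreteTopology (G n)]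
    [∀ n, MeasurableSpace (G n)] [∀ n, DiscreteMeasurableSpace (G n)] : Measure (∀ i, G i) :=
  Measure.addHaarMeasure (⊤ : PositiveCompacts (∀ i, G i))

instance : IsProbabilityMeasure (mu G) := by
  refine ⟨?_⟩
  have := Measure.addHaarMeasure_self (K₀ := (⊤ : PositiveCompacts (∀ i, G i)))
  simpa [mu] using this

instance : (mu G).IsAddLeftInvariant := by
  unfold mu
  infer_instance

instance : (mu G).IsAddRightInvariant := by
  infer_instance

omit [∀ n, AddCommGroup (G n)] [∀ n, Fintype (G n)] [∀ n, TopologicalSpace (G n)]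
  [∀ n, DiscreteTopology (G n)] [∀ n, DiscreteMeasurableSpace (G n)] in
theorem measurable_rs (n : ℕ) : Measurable (rs n : (∀ i, G i) → HH G n) :=
  measurable_pi_lambda _ fun _ => measurable_pi_apply _

theorem Lev.measurable {β : Type} [MeasurableSpace β] {n : ℕ} {ψ : (∀ i, G i) → β}
    (h : Lev n ψ) : Measurable ψ := by
  have h1 : ψ = (fun a : HH G n => ψ (emb n a)) ∘ rs n := by
    funext x
    exact (h.emb_rs x).symm
  rw [h1]
  have h2 : Measurable (fun a : HH G n => ψ (emb n a)) := by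
    have : DiscreteMeasurableSpace (HH G n) := inferInstance
    exact Measurable.of_discrete
  exact h2.comp (measurable_rs n)

omit [∀ n, TopologicalSpace (G n)] [∀ n, DiscreteTopology (G n)] [∀ n, MeasurableSpace (G n)]
  [∀ n, DiscreteMeasurableSpace (G n)] in
theorem Lev.bdd {n : ℕ} {ψ : (∀ i, G i) → ℝ} (h : Lev n ψ) : ∃ C : ℝ, ∀ x, ‖ψ x‖ ≤ C := by
  refine ⟨∑ a : HH G n, ‖ψ (emb n a)‖, fun x => ?_⟩
  rw [← h.emb_rs x]
  exact Finset.single_le_sum (f := fun a : HH G n => ‖ψ (emb n a)‖)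
    (fun _ _ => norm_nonneg _) (Finset.mem_univ (rs n x))

theorem Lev.memLp {n : ℕ} {ψ : (∀ i, G i) → ℝ} (h : Lev n ψ) (p : ENNReal) :
    MemLp ψ p (mu G) := by
  obtain ⟨C, hC⟩ := h.bdd
  exact MemLp.of_bound h.measurable.aestronglyMeasurable C (Filter.Eventually.of_forall hC)

theorem Lev.integrable {n : ℕ} {ψ : (∀ i, G i) → ℝ} (h : Lev n ψ) : Integrable ψ (mu G) :=
  memLp_one_iff_integrable.1 (h.memLp 1)

theorem integral_shift (Ψ : (∀ i, G i) → ℝ) (g : ∀ i, G i) :
    ∫ x, Ψ (x + g) ∂(mu G) = ∫ x, Ψ x ∂(mu G) :=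
  integral_add_right_eq_self Ψ g

omit [∀ n, AddCommGroup (G n)] [∀ n, Fintype (G n)] [∀ n, TopologicalSpace (G n)]
  [∀ n, DiscreteTopology (G n)] [∀ n, DiscreteMeasurableSpace (G n)] in
/-- change of variables -/
theorem integral_comp_of_mp {μ : Measure (∀ i, G i)} {F : (∀ i, G i) → ∀ i, G i}
    (hF : MeasurePreserving F μ μ) {Ψ : (∀ i, G i) → ℝ} (hΨ : AEStronglyMeasurable Ψ μ) :
    ∫ x, Ψ (F x) ∂μ = ∫ x, Ψ x ∂μ := by
  have h := integral_map hF.measurable.aemeasurable (f := Ψ) (by rw [hF.map_eq]; exact hΨ)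
  rw [hF.map_eq] at h
  exact h.symm

/-- averaging over finitely many translations -/
theorem integral_avg {κ : Type} [Fintype κ] [Nonempty κ] (g : κ → ∀ i, G i) {m : ℕ}
    {Ψ : (∀ i, G i) → ℝ} (h : Lev m Ψ) :
    ∫ x, Ψ x ∂(mu G) = ∫ x, (∑ k, Ψ (x + g k)) / Fintype.card κ ∂(mu G) := by
  rw [integral_div, integral_finsetSum]
  · simp_rw [integral_shift]
    rw [Finset.sum_const, nsmul_eq_mul, Finset.card_univ]
    have : (Fintype.card κ : ℝ) ≠ 0 := by exact_mod_cast Fintype.card_ne_zero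
    field_simp
  · intro k _
    exact (h.add_right (g k)).integrable

theorem Lev.integral_eq {n : ℕ} {ψ : (∀ i, G i) → ℝ} (h : Lev n ψ) :
    ∫ x, ψ x ∂(mu G) = (∑ a : HH G n, ψ (emb n a)) / Fintype.card (HH G n) := by
  rw [integral_avg (fun a : HH G n => emb n a) h]
  simp_rw [h.sum_emb]
  simp

/-- single coordinate -/
theorem integral_coord (n : ℕ) (B : G n → ℝ) :
    ∫ x, B (x n) ∂(mu G) = (∑ y, B y) / Fintype.card (G n) := by
  classical
  have hL : Lev (n + 1) fun x : ∀ i, G i => B (x n) := by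
    intro x y hxy
    simp only
    rw [hxy n (Nat.lt_succ_self n)]
  rw [integral_avg (fun y : G n => Pi.single n y) hL]
  have h1 : ∀ x : ∀ i, G i, ∑ y, B ((x + Pi.single n y : ∀ i, G i) n) = ∑ y, B y := by
    intro x
    simp only [Pi.add_apply, Pi.single_eq_same]
    exact Equiv.sum_comp (Equiv.addLeft (x n)) B
  simp_rw [h1]
  simp

/-- a level `n` function with mean zero is orthogonal to functions of the later coordinates, also
after a shift of its argument which depends on the later coordinates only -/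
theorem integral_mul_tail {n m : ℕ} {ψ : (∀ i, G i) → ℝ} (h : Lev n ψ)
    (h0 : ∫ x, ψ x ∂(mu G) = 0) (w : (∀ i, G i) → ∀ i, G i) (B : (∀ i, G i) → ℝ)
    (hw : ∀ x, ∀ a : HH G n, w (x + emb n a) = w x) (hB : ∀ x, ∀ a : HH G n, B (x + emb n a) = B x)
    (hm : Lev m fun x => ψ (x + w x) * B x) :
    ∫ x, ψ (x + w x) * B x ∂(mu G) = 0 := by
  rw [integral_avg (fun a : HH G n => emb n a) hm]
  have h1 : ∀ x : ∀ i, G i, ∑ a : HH G n, ψ (x + emb n a + w (x + emb n a)) * B (x + emb n a) = 0 := by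
    intro x
    simp_rw [hw, hB]
    rw [← Finset.sum_mul]
    have h2 : ∀ a : HH G n, x + emb n a + w x = (x + w x) + emb n a := fun a => by abel
    simp_rw [h2]
    rw [h.sum_emb]
    have h3 := h.integral_eq
    rw [h0] at h3
    have h4 : (Fintype.card (HH G n) : ℝ) ≠ 0 := by exact_mod_cast Fintype.card_ne_zero
    have h5 : ∑ a : HH G n, ψ (emb n a) = 0 := by
      rcases div_eq_zero_iff.1 h3.symm with h6 | h6
      · exact h6
      · exact absurd h6 h4
    rw [h5, zero_mul]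
  simp_rw [h1]
  simp

end

end Vale.Agent.P130
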