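import Vale.Agent.P130.LTwo

/-!
# P130: completeness
-/

namespace Vale.Agent.P130

open MeasureTheory TopologicalSpace Filter Topology

section
variable {G : ℕ → Type} [∀ n, AddCommGroup (G n)] [∀ n, Fintype (G n)] [∀ n, DecidableEq (G n)]

/-- the inverse position maps respect levels -/
theorem Bent.Ph_symm_lev (D : Bent G) (n : ℕ) : ∀ x y : ∀ i, G i, (∀ i < n, x i = y i) →
    ∀ i < n, (D.Ph n).symm x i = (D.Ph n).symm y i := by
  induction n with
  | zero => intro x y _ i hi; omega
  | succ n ih =>
    intro x y hxy i hi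
    rw [D.Ph_succ_symm, D.Ph_succ_symm]
    have h1 : ∀ j < n + 1, (D.sh n).symm x j = (D.sh n).symm y j := by
      intro j hj
      rw [D.sh_symm_apply, D.sh_symm_apply, Pi.sub_apply, Pi.sub_apply, hxy j hj,
        hxy n (Nat.lt_succ_self n)]
    rcases Nat.lt_succ_iff_lt_or_eq.1 hi with h | h
    · exact ih _ _ (fun j hj => h1 j (by omega)) i h
    · subst h
      rw [D.Ph_symm_ge i _ le_rfl, D.Ph_symm_ge i _ le_rfl]
      exact h1 i (Nat.lt_succ_self i)

variable [∀ n, TopologicalSpace (G n)] [∀ n, DiscreteTopology (G n)]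
  [∀ n, MeasurableSpace (G n)] [∀ n, DiscreteMeasurableSpace (G n)]

/-- finite autocorrelation sums -/
theorem Bent.sum_ps_mul (D : Bent G) (n : ℕ) (a b : HH G n) :
    ∑ h : HH G n, D.ps n (emb n a + emb n h) * D.ps n (emb n b + emb n h) =
      (if a = b then (Fintype.card (HH G n) : ℝ) else 0) - 1 := by
  classical
  have hch : (Fintype.card (HH G n) : ℝ) ≠ 0 := by exact_mod_cast Fintype.card_ne_zero
  have hl := D.ps_lev n
  have hL : Lev n fun z => D.ps n (z + emb n (a - b)) * D.ps n z := by
    intro x y hxy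
    have e1 : D.ps n (x + emb n (a - b)) = D.ps n (y + emb n (a - b)) :=
      (hl.add_right _) x y hxy
    simp only
    rw [e1, hl x y hxy]
  have h1 := D.corr n (emb n (a - b)) (fun i hi => emb_ge _ hi)
  rw [hL.integral_eq] at h1
  have h2 : ∑ h : HH G n, D.ps n (emb n a + emb n h) * D.ps n (emb n b + emb n h) =
      ∑ h : HH G n, D.ps n (emb n h + emb n (a - b)) * D.ps n (emb n h) := by
    rw [← Equiv.sum_comp (Equiv.addLeft b)
      (fun h => D.ps n (emb n h + emb n (a - b)) * D.ps n (emb n h))]
    refine Finset.sum_congr rfl fun h _ => ?_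
    simp only [Equiv.coe_addLeft]
    rw [← emb_add, ← emb_add, ← emb_add]
    congr 3
    abel
  rw [h2]
  have h3 : (if emb n (a - b) = 0 then (1 : ℝ) else 0) = if a = b then 1 else 0 := by
    by_cases hab : a = b
    · rw [if_pos hab, if_pos]
      rw [hab, sub_self, emb_zero]
    · rw [if_neg hab, if_neg]
      intro h0
      apply hab
      have : rs n (emb n (a - b)) = rs n (0 : ∀ i, G i) := by rw [h0]
      have h4 : a - b = 0 := by
        funext i
        have := congrFun this i
        unfold rs at this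
        rw [emb_lt _ i.2] at this
        exact this
      exact sub_eq_zero.1 h4
  have h5 : (if emb n (a - b) = 0 then (1 : ℝ) else 0) - 1 / (Fintype.card (HH G n) : ℝ) =
      (if a = b then 1 else 0) - 1 / (Fintype.card (HH G n) : ℝ) := by rw [h3]
  rw [div_eq_iff hch] at h1
  rw [h1]
  have h6 : ∀ (r : ℝ), ((if a = b then (1 : ℝ) else 0) - 1 / r) * r =
      (if a = b then r else 0) - 1 / r * r := by
    intro r
    split_ifs <;> ring
  have h7 : (1 / (Fintype.card (HH G n) : ℝ)) * Fintype.card (HH G n) = 1 := by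
    field_simp
  calc _ = ((if a = b then (1 : ℝ) else 0) - 1 / (Fintype.card (HH G n) : ℝ)) *
        (Fintype.card (HH G n) : ℝ) := by
        congr 1
    _ = _ := by rw [h6, h7]

/-- the coefficients of a level function -/
noncomputable def Bent.co (D : Bent G) (n : ℕ) (ω : (∀ i, G i) → ℝ) (h : HH G n) : ℝ :=
  (∑ a : HH G n, ω (emb n a) * D.ps n (emb n a + emb n h)) / Fintype.card (HH G n)

theorem Bent.sum_co (D : Bent G) (n : ℕ) (ω : (∀ i, G i) → ℝ) : ∑ h, D.co n ω h = 0 := by
  unfold Bent.co
  rw [← Finset.sum_div, Finset.sum_comm]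
  simp_rw [← Finset.mul_sum, D.sum_ps n]
  simp

theorem Bent.expand (D : Bent G) (n : ℕ) {ω : (∀ i, G i) → ℝ} (hω : Lev n ω)
    (h0 : ∫ x, ω x ∂(mu G) = 0) (z : ∀ i, G i) :
    ∑ h, D.co n ω h * D.ps n (z + emb n h) = ω z := by
  classical
  have hch : (Fintype.card (HH G n) : ℝ) ≠ 0 := by exact_mod_cast Fintype.card_ne_zero
  have hs : ∑ a : HH G n, ω (emb n a) = 0 := by
    have h3 := hω.integral_eq
    rw [h0] at h3
    rcases div_eq_zero_iff.1 h3.symm with h6 | h6
    · exact h6
    · exact absurd h6 hch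
  obtain ⟨b, hb⟩ : ∃ b : HH G n, b = rs n z := ⟨_, rfl⟩
  have e1 : ∀ h : HH G n, D.ps n (z + emb n h) = D.ps n (emb n b + emb n h) := by
    intro h
    apply D.ps_lev n
    intro i hi
    rw [Pi.add_apply, Pi.add_apply, hb, emb_lt (rs n z) hi]
    rfl
  have e2 : ω z = ω (emb n b) := by rw [hb, hω.emb_rs]
  rw [e2]
  simp_rw [e1]
  unfold Bent.co
  have e3 : ∀ h : HH G n,
      (∑ a : HH G n, ω (emb n a) * D.ps n (emb n a + emb n h)) / Fintype.card (HH G n) *
        D.ps n (emb n b + emb n h) =
      (∑ a : HH G n, ω (emb n a) * (D.ps n (emb n a + emb n h) * D.ps n (emb n b + emb n h))) /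
        Fintype.card (HH G n) := by
    intro h
    rw [div_mul_eq_mul_div, Finset.sum_mul]
    congr 1
    refine Finset.sum_congr rfl fun a _ => ?_
    ring
  simp_rw [e3]
  rw [← Finset.sum_div, Finset.sum_comm]
  simp_rw [← Finset.mul_sum, D.sum_ps_mul, mul_sub, mul_one, Finset.sum_sub_distrib, hs]
  simp only [mul_ite, mul_zero, Finset.sum_ite_eq', Finset.mem_univ, if_true, sub_zero]
  field_simp

/-- level functions in position coordinates are finite combinations of translates of the vector -/
theorem Bent.level_mem (D : Bent G) (n : ℕ) {ω : (∀ i, G i) → ℝ} (hω : Lev n ω)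
    (h0 : ∫ x, ω x ∂(mu G) = 0) :
    ((hω.memLp 2).comp_measurePreserving (D.Ph_mp n)).toLp (ω ∘ D.Ph n) =
      ∑ h, D.co n ω h • D.U (gm n h) D.ff := by
  have h1 : ∀ h : HH G n, D.U (gm n h) D.ff =
      D.U (gm n h) (Fn G n) + (D.ff - Fn G n) := by
    intro h
    rw [← D.U_tail n h, ← map_add, add_sub_cancel]
  simp_rw [h1, smul_add, Finset.sum_add_distrib]
  rw [← Finset.sum_smul, D.sum_co, zero_smul, add_zero]
  -- representatives
  apply Lp.ext
  have h2 : ∀ h : HH G n, (D.U (gm n h) (Fn G n) : (∀ i, G i) → ℝ) =ᵐ[mu G]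
      fun x => D.ps n (D.Ph n x + emb n h) := by
    intro h
    have e1 : D.U (gm n h) (Fn G n) =
      ((((fs_lev n).memLp 2).comp_measurePreserving (D.T_mp (gm n h))).toLp
        (fs n ∘ D.T (gm n h))) := D.U_toLp _ _
    rw [e1]
    refine (MemLp.coeFn_toLp _).trans (Eventually.of_forall fun x => ?_)
    have e2 : fs n (D.T (gm n h) x) = D.ps n (D.Ph n (D.T (gm n h) x)) := (D.ps_Ph n _).symm
    rw [Function.comp_apply, e2, D.T_eq (gm n h) (fun i hi => emb_ge h hi)]
    unfold Bent.Tn
    rw [Equiv.apply_symm_apply]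
    rfl
  have h3 : ((∑ h, D.co n ω h • D.U (gm n h) (Fn G n) : Lp ℝ 2 (mu G)) : (∀ i, G i) → ℝ) =ᵐ[mu G]
      fun x => ∑ h, D.co n ω h * D.ps n (D.Ph n x + emb n h) := by
    have e1 := Lp.coeFn_finsetSum (μ := mu G) (p := 2) (Finset.univ : Finset (HH G n))
      (fun h => D.co n ω h • D.U (gm n h) (Fn G n))
    refine e1.trans ?_
    have e2 : ∀ᵐ x ∂(mu G), ∀ h : HH G n, (D.co n ω h • D.U (gm n h) (Fn G n) : Lp ℝ 2 (mu G)) x =
        D.co n ω h * D.ps n (D.Ph n x + emb n h) := by
      rw [ae_all_iff]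
      intro h
      filter_upwards [Lp.coeFn_smul (D.co n ω h) (D.U (gm n h) (Fn G n)), h2 h] with x hx hx2
      rw [hx, Pi.smul_apply, hx2, smul_eq_mul]
    filter_upwards [e2] with x hx
    rw [Finset.sum_apply]
    exact Finset.sum_congr rfl fun h _ => hx h
  refine (MemLp.coeFn_toLp _).trans (EventuallyEq.trans ?_ h3.symm)
  exact Eventually.of_forall fun x => (D.expand n hω h0 (D.Ph n x)).symm

/-- completeness: a mean-zero vector orthogonal to all translates vanishes -/
theorem Bent.compl (D : Bent G) (u : Lp ℝ 2 (mu G)) (hu : ∫ x, u x ∂(mu G) = 0)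
    (h : ∀ g : Gam G, inner ℝ u (D.U g D.ff) = 0) : (u : (∀ i, G i) → ℝ) =ᵐ[mu G] 0 := by
  have hint : Integrable u (mu G) := (Lp.memLp u).integrable (by norm_num)
  -- orthogonal to level functions
  have hlev : ∀ (n : ℕ) (w : (∀ i, G i) → ℝ), Lev n w → ∫ x, u x * w x ∂(mu G) = 0 := by
    intro n w hw
    obtain ⟨c, hc⟩ : ∃ c : ℝ, c = ∫ x, w x ∂(mu G) := ⟨_, rfl⟩
    have hw1 : Lev n (w ∘ (D.Ph n).symm) := by
      intro x y hxy
      exact hw _ _ (D.Ph_symm_lev n x y hxy)
    have hω : Lev n fun z => (w ∘ (D.Ph n).symm) z - c := by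
      intro x y hxy
      simp only
      rw [hw1 x y hxy]
    have h0 : ∫ z, ((w ∘ (D.Ph n).symm) z - c) ∂(mu G) = 0 := by
      rw [integral_sub hw1.integrable (integrable_const _), integral_const]
      have e := integral_comp_of_mp (D.Ph_symm_mp n) hw.measurable.aestronglyMeasurable
      simp only [Function.comp_apply]
      rw [e, ← hc]
      simp
    have h1 := D.level_mem n hω h0
    have h2 : inner ℝ u (((hω.memLp 2).comp_measurePreserving (D.Ph_mp n)).toLp
        ((fun z => (w ∘ (D.Ph n).symm) z - c) ∘ D.Ph n)) = 0 := by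
      rw [h1, inner_sum]
      refine Finset.sum_eq_zero fun g _ => ?_
      rw [inner_smul_right, h, mul_zero]
    rw [inner_toLp'] at h2
    have h3 : ∀ x, u x * ((fun z => (w ∘ (D.Ph n).symm) z - c) ∘ D.Ph n) x =
        u x * w x - c * u x := by
      intro x
      simp only [Function.comp_apply, Equiv.symm_apply_apply]
      ring
    simp_rw [h3] at h2
    have hb : Integrable (fun x => u x * w x) (mu G) := by
      obtain ⟨C, hC⟩ := hw.bdd
      exact hint.mul_bdd (c := C) hw.measurable.aestronglyMeasurable (Eventually.of_forall hC)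
    rw [integral_sub hb (hint.const_mul c), integral_const_mul, hu, mul_zero, sub_zero] at h2
    exact h2
  -- all measurable sets
  have hset : ∀ A : Set (∀ i, G i), MeasurableSet A → ∫ x in A, u x ∂(mu G) = 0 := by
    intro A hA
    induction A, hA using MeasurableSpace.induction_on_inter
      (generateFrom_measurableCylinders (α := G)).symm (isPiSystem_measurableCylinders (α := G)) with
    | empty => simp
    | basic A hA =>
      obtain ⟨s, S, hS, rfl⟩ := (mem_measurableCylinders A).1 hA
      have hL : Lev (s.sup id + 1) (Set.indicator (cylinder s S) fun _ => (1 : ℝ)) := by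
        intro x y hxy
        have e : x ∈ cylinder s S ↔ y ∈ cylinder s S := by
          rw [mem_cylinder, mem_cylinder]
          have : s.restrict x = s.restrict y := by
            funext i
            exact hxy i (Nat.lt_succ_of_le (Finset.le_sup (f := id) i.2))
          rw [this]
        by_cases hx : x ∈ cylinder s S
        · rw [Set.indicator_of_mem hx, Set.indicator_of_mem (e.1 hx)]
        · rw [Set.indicator_of_notMem hx, Set.indicator_of_notMem fun hy => hx (e.2 hy)]
      have h1 := hlev _ _ hL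
      have hm : MeasurableSet (cylinder s S) := MeasurableSet.cylinder s hS
      rw [← integral_indicator hm, ← h1]
      refine integral_congr_ae (Eventually.of_forall fun x => ?_)
      by_cases hx : x ∈ cylinder s S
      · simp [Set.indicator_of_mem hx]
      · simp [Set.indicator_of_notMem hx]
    | compl A hA ih =>
      rw [setIntegral_compl hA hint, hu, ih, sub_zero]
    | iUnion f hd hf ih =>
      rw [integral_iUnion hf hd hint.integrableOn]
      simp [ih]
  exact hint.ae_eq_zero_of_forall_setIntegral_eq_zero fun s hs _ => hset s hs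

end

end Vale.Agent.P130
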