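import Vale.Agent.P130.Tower

/-!
# P130: the generating function and its autocorrelations
-/

namespace Vale.Agent.P130

open MeasureTheory TopologicalSpace

section
variable {G : ℕ → Type} [∀ n, AddCommGroup (G n)] [∀ n, Fintype (G n)] [∀ n, DecidableEq (G n)]

theorem card_HH_succ (G : ℕ → Type) [∀ n, Fintype (G n)] (n : ℕ) :
    Fintype.card (HH G (n + 1)) = Fintype.card (HH G n) * Fintype.card (G n) := by
  rw [Fintype.card_pi, Fintype.card_pi, Fin.prod_univ_castSucc]
  rfl

theorem card_HH_zero (G : ℕ → Type) [∀ n, Fintype (G n)] : Fintype.card (HH G 0) = 1 := by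
  rw [Fintype.card_pi]
  simp

/-- the correction in block `n` -/
noncomputable def cc (n : ℕ) (y : G n) : ℝ :=
  Real.sqrt (Fintype.card (G n) / Fintype.card (HH G n)) *
    ((if y = 0 then 1 else 0) - 1 / Fintype.card (G n))

theorem sum_cc (n : ℕ) : ∑ y : G n, cc n y = 0 := by
  have h : (Fintype.card (G n) : ℝ) ≠ 0 := by exact_mod_cast Fintype.card_ne_zero
  unfold cc
  rw [← Finset.mul_sum, Finset.sum_sub_distrib]
  simp only [Finset.sum_ite_eq', Finset.mem_univ, if_true, Finset.sum_const, Finset.card_univ,
    nsmul_eq_mul]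
  field_simp
  simp

theorem sum_cc_mul (n : ℕ) (γ : G n) : (∑ y : G n, cc n (y + γ) * cc n y) / Fintype.card (G n) =
    ((if γ = 0 then 1 else 0) - 1 / Fintype.card (G n)) / Fintype.card (HH G n) := by
  have h : (Fintype.card (G n) : ℝ) ≠ 0 := by exact_mod_cast Fintype.card_ne_zero
  have h' : (Fintype.card (HH G n) : ℝ) ≠ 0 := by exact_mod_cast Fintype.card_ne_zero
  have hs : Real.sqrt ((Fintype.card (G n) : ℝ) / Fintype.card (HH G n)) *
      Real.sqrt ((Fintype.card (G n) : ℝ) / Fintype.card (HH G n)) =
      (Fintype.card (G n) : ℝ) / Fintype.card (HH G n) := Real.mul_self_sqrt (by positivity)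
  have h1 : ∀ y : G n, cc n (y + γ) * cc n y =
      ((Fintype.card (G n) : ℝ) / Fintype.card (HH G n)) *
      ((if y + γ = 0 then (if y = 0 then (1 : ℝ) else 0) else 0)
        - 1 / Fintype.card (G n) * (if y + γ = 0 then 1 else 0)
        - 1 / Fintype.card (G n) * (if y = 0 then 1 else 0)
        + 1 / Fintype.card (G n) * (1 / Fintype.card (G n))) := by
    intro y
    rw [← hs]
    unfold cc
    split_ifs <;> ring
  simp_rw [h1]
  rw [← Finset.mul_sum, Finset.sum_add_distrib, Finset.sum_sub_distrib, Finset.sum_sub_distrib,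
    ← Finset.mul_sum, ← Finset.mul_sum]
  have e1 : ∑ y : G n, (if y + γ = 0 then (if y = 0 then (1 : ℝ) else 0) else 0) =
      if γ = 0 then 1 else 0 := by
    rw [Finset.sum_eq_single 0]
    · simp
    · intro y _ hy
      simp [hy]
    · simp
  have e2 : ∑ y : G n, (if y + γ = 0 then (1 : ℝ) else 0) = 1 := by
    rw [Finset.sum_eq_single (-γ)]
    · simp
    · intro y _ hy
      rw [if_neg]
      intro h
      exact hy (eq_neg_of_add_eq_zero_left h)
    · simp
  have e3 : ∑ y : G n, (if y = 0 then (1 : ℝ) else 0) = 1 := by simp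
  rw [e1, e2, e3, Finset.sum_const, Finset.card_univ, nsmul_eq_mul]
  field_simp
  ring

/-- the generating function in position coordinates -/
noncomputable def Bent.ps (D : Bent G) : ℕ → (∀ i, G i) → ℝ
  | 0 => fun _ => 0
  | n + 1 => fun z => D.ps n ((D.sh n).symm z) + cc n (z n)

theorem Bent.ps_succ_sh (D : Bent G) (n : ℕ) (z g : ∀ i, G i) :
    D.ps (n + 1) (D.sh n z + g) =
      D.ps n (z + (g + D.s n (z n) - D.s n (z n + g n))) + cc n (z n + g n) := by
  have h1 : (D.sh n z + g) n = z n + g n := by
    rw [Pi.add_apply, D.sh_apply, Pi.add_apply, D.s_zero n _ n le_rfl, add_zero]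
  change D.ps n ((D.sh n).symm (D.sh n z + g)) + cc n ((D.sh n z + g) n) = _
  rw [D.sh_symm_apply, h1, D.sh_apply]
  congr 2
  abel

theorem Bent.ps_lev (D : Bent G) (n : ℕ) : Lev n (D.ps n) := by
  induction n with
  | zero => intro x y _; rfl
  | succ n ih =>
    intro x y hxy
    change D.ps n ((D.sh n).symm x) + cc n (x n) = D.ps n ((D.sh n).symm y) + cc n (y n)
    have hn : x n = y n := hxy n (Nat.lt_succ_self n)
    rw [hn]
    congr 1
    apply ih
    intro i hi
    rw [D.sh_symm_apply, D.sh_symm_apply, Pi.sub_apply, Pi.sub_apply, hn, hxy i (by omega)]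

/-- the generating function in the original coordinates -/
theorem Bent.ps_Ph (D : Bent G) (n : ℕ) (x : ∀ i, G i) :
    D.ps n (D.Ph n x) = ∑ i ∈ Finset.range n, cc i (x i) := by
  induction n with
  | zero => simp [Bent.ps]
  | succ n ih =>
    rw [Finset.sum_range_succ, ← ih, D.Ph_succ]
    have h := D.ps_succ_sh n (D.Ph n x) 0
    rw [add_zero, Pi.zero_apply, add_zero, zero_add, sub_self, add_zero] at h
    rw [h, D.Ph_ge n x le_rfl]

variable [∀ n, TopologicalSpace (G n)] [∀ n, DiscreteTopology (G n)]
  [∀ n, MeasurableSpace (G n)] [∀ n, DiscreteMeasurableSpace (G n)]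

theorem Bent.integral_ps (D : Bent G) (n : ℕ) : ∫ x, D.ps n x ∂(mu G) = 0 := by
  induction n with
  | zero => simp [Bent.ps]
  | succ n ih =>
    have hl := D.ps_lev (n + 1)
    have h0 : ∫ x, D.ps (n + 1) (D.sh n x) ∂(mu G) = ∫ x, D.ps (n + 1) x ∂(mu G) :=
      integral_comp_of_mp (D.sh_mp n) hl.measurable.aestronglyMeasurable
    rw [← h0]
    have h1 : ∀ x, D.ps (n + 1) (D.sh n x) = D.ps n x + cc n (x n) := by
      intro x
      have h := D.ps_succ_sh n x 0
      rw [add_zero, Pi.zero_apply, add_zero, zero_add, sub_self, add_zero] at h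
      exact h
    simp_rw [h1]
    have hc : Lev (n + 1) fun x : ∀ i, G i => cc n (x n) := by
      intro x y hxy
      simp only
      rw [hxy n (Nat.lt_succ_self n)]
    rw [integral_add (D.ps_lev n).integrable hc.integrable, ih, integral_coord, sum_cc]
    simp

theorem Bent.sum_ps (D : Bent G) (n : ℕ) (x : ∀ i, G i) :
    ∑ a : HH G n, D.ps n (x + emb n a) = 0 := by
  rw [(D.ps_lev n).sum_emb]
  have h3 := (D.ps_lev n).integral_eq
  rw [D.integral_ps] at h3
  have h4 : (Fintype.card (HH G n) : ℝ) ≠ 0 := by exact_mod_cast Fintype.card_ne_zero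
  rcases div_eq_zero_iff.1 h3.symm with h6 | h6
  · exact h6
  · exact absurd h6 h4

open Classical in
/-- the autocorrelations -/
theorem Bent.corr (D : Bent G) (n : ℕ) : ∀ g : ∀ i, G i, (∀ i, n ≤ i → g i = 0) →
    ∫ z, D.ps n (z + g) * D.ps n z ∂(mu G) =
      (if g = 0 then 1 else 0) - 1 / (Fintype.card (HH G n) : ℝ) := by
  induction n with
  | zero =>
    intro g hg
    have h0 : g = 0 := funext fun i => hg i (Nat.zero_le i)
    rw [card_HH_zero]
    simp [Bent.ps, h0]
  | succ n ih =>
    intro g hg
    have hcn : (Fintype.card (G n) : ℝ) ≠ 0 := by exact_mod_cast Fintype.card_ne_zero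
    have hch : (Fintype.card (HH G n) : ℝ) ≠ 0 := by exact_mod_cast Fintype.card_ne_zero
    have hl := D.ps_lev (n + 1)
    have hL : Lev (n + 1) fun z => D.ps (n + 1) (z + g) * D.ps (n + 1) z := by
      intro x y hxy
      have e1 : D.ps (n + 1) (x + g) = D.ps (n + 1) (y + g) := (hl.add_right g) x y hxy
      have e2 : D.ps (n + 1) x = D.ps (n + 1) y := hl x y hxy
      simp only
      rw [e1, e2]
    have h0 := integral_comp_of_mp (D.sh_mp n) hL.measurable.aestronglyMeasurable
    rw [← h0]
    obtain ⟨w, hw⟩ : ∃ w : (∀ i, G i) → ∀ i, G i,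
      w = fun z => g + D.s n (z n) - D.s n (z n + g n) := ⟨_, rfl⟩
    have h1 : ∀ z, D.ps (n + 1) (D.sh n z + g) * D.ps (n + 1) (D.sh n z) =
        D.ps n (z + w z) * D.ps n z + D.ps n (z + w z) * cc n (z n)
        + (D.ps n (z + 0) * cc n (z n + g n) + cc n (z n + g n) * cc n (z n)) := by
      intro z
      have e1 := D.ps_succ_sh n z g
      have e2 := D.ps_succ_sh n z 0
      rw [add_zero, Pi.zero_apply, add_zero, zero_add, sub_self, add_zero] at e2
      rw [e1, e2, hw, add_zero]
      ring
    simp_rw [h1]
    -- levels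
    have lw : Lev (n + 1) fun z => D.ps n (z + w z) := by
      intro x y hxy
      have hn : x n = y n := hxy n (Nat.lt_succ_self n)
      apply D.ps_lev n
      intro i hi
      rw [Pi.add_apply, Pi.add_apply, hxy i (by omega), hw]
      simp only [hn]
    have lc : ∀ γ : G n, Lev (n + 1) fun x : ∀ i, G i => cc n (x n + γ) := by
      intro γ x y hxy
      simp only
      rw [hxy n (Nat.lt_succ_self n)]
    have lc0 : Lev (n + 1) fun x : ∀ i, G i => cc n (x n) := by
      intro x y hxy
      simp only
      rw [hxy n (Nat.lt_succ_self n)]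
    have lp : Lev (n + 1) (D.ps n) := (D.ps_lev n).mono (Nat.le_succ n)
    have lmul : ∀ {a b : (∀ i, G i) → ℝ}, Lev (n + 1) a → Lev (n + 1) b →
        Lev (n + 1) fun z => a z * b z := by
      intro a b ha hb x y hxy
      simp only
      rw [ha x y hxy, hb x y hxy]
    have l1 := lmul lw lp
    have l2 := lmul lw lc0
    have l3 : Lev (n + 1) fun z : ∀ i, G i => D.ps n (z + 0) * cc n (z n + g n) := by
      have := lmul lp (lc (g n))
      simpa only [add_zero] using this
    have l4 := lmul (lc (g n)) lc0
    rw [integral_add, integral_add, integral_add]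
    rotate_left
    · exact l3.integrable
    · exact l4.integrable
    · exact l1.integrable
    · exact l2.integrable
    · exact l1.integrable.add l2.integrable
    · exact l3.integrable.add l4.integrable
    -- the mixed terms
    have hembn : ∀ (z : ∀ i, G i) (a : HH G n), (z + emb n a) n = z n := by
      intro z a
      rw [Pi.add_apply, emb_ge a le_rfl, add_zero]
    have I2 : ∫ z, D.ps n (z + w z) * cc n (z n) ∂(mu G) = 0 := by
      refine integral_mul_tail (D.ps_lev n) (D.integral_ps n) w (fun z => cc n (z n)) ?_ ?_ l2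
      · intro x a
        rw [hw]
        simp only [hembn]
      · intro x a
        simp only [hembn]
    have I3 : ∫ z : ∀ i, G i, D.ps n (z + 0) * cc n (z n + g n) ∂(mu G) = 0 := by
      refine integral_mul_tail (D.ps_lev n) (D.integral_ps n) (fun _ => 0)
        (fun z => cc n (z n + g n)) (fun _ _ => rfl) ?_ l3
      intro x a
      simp only [hembn]
    have I4 : ∫ z : ∀ i, G i, cc n (z n + g n) * cc n (z n) ∂(mu G) =
        ((if g n = 0 then 1 else 0) - 1 / Fintype.card (G n)) / Fintype.card (HH G n) := by
      rw [integral_coord n (fun y => cc n (y + g n) * cc n y), sum_cc_mul]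
    rw [I2, I3, I4]
    have hcard : (Fintype.card (HH G (n + 1)) : ℝ) =
        Fintype.card (HH G n) * Fintype.card (G n) := by
      rw [card_HH_succ]
      push_cast
      rfl
    rw [hcard]
    by_cases hγ : g n = 0
    · have hg' : ∀ i, n ≤ i → g i = 0 := by
        intro i hi
        rcases eq_or_lt_of_le hi with h | h
        · rw [← h]; exact hγ
        · exact hg i h
      have e : ∀ z, w z = g := by
        intro z
        rw [hw]
        simp only [hγ, add_zero]
        abel
      simp_rw [e]
      rw [ih g hg', if_pos hγ]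
      field_simp
      ring
    · have hg0 : g ≠ 0 := by
        rintro rfl
        exact hγ rfl
      have I1 : ∫ z, D.ps n (z + w z) * D.ps n z ∂(mu G) = 0 := by
        rw [integral_avg (fun y : G n => Pi.single n y) l1]
        have e1 : ∀ z : ∀ i, G i, ∑ y : G n, D.ps n (z + Pi.single n y + w (z + Pi.single n y)) *
            D.ps n (z + Pi.single n y) = 0 := by
          intro z
          have e2 : ∀ y : G n, D.ps n (z + Pi.single n y) = D.ps n z := by
            intro y
            apply D.ps_lev n
            intro i hi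
            rw [Pi.add_apply, Pi.single_eq_of_ne (by omega), add_zero]
          have e3 : ∀ y : G n, D.ps n (z + Pi.single n y + w (z + Pi.single n y)) =
              D.ps n ((z + g) + D.s n (z n + y) - D.s n (z n + y + g n)) := by
            intro y
            apply D.ps_lev n
            intro i hi
            rw [hw]
            simp only [Pi.add_apply, Pi.sub_apply, Pi.single_eq_same,
              Pi.single_eq_of_ne (show i ≠ n by omega), add_zero]
            abel
          simp_rw [e2, e3]
          rw [← Finset.sum_mul]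
          have e4 : ∑ y : G n, D.ps n ((z + g) + D.s n (z n + y) - D.s n (z n + y + g n)) =
              ∑ y : G n, D.ps n ((z + g) + D.s n y - D.s n (y + g n)) :=
            Equiv.sum_comp (Equiv.addLeft (z n))
              (fun y => D.ps n ((z + g) + D.s n y - D.s n (y + g n)))
          have e5 := D.bent n (g n) hγ (D.ps n) (D.ps_lev n) (z + g)
          have e6 := D.sum_ps n 0
          simp only [zero_add] at e6
          rw [e6, mul_zero] at e5
          have e7 : ∑ y : G n, D.ps n ((z + g) + D.s n y - D.s n (y + g n)) = 0 := by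
            rcases mul_eq_zero.1 e5 with h | h
            · exact h
            · exact absurd h hch
          rw [e4, e7, zero_mul]
        simp_rw [e1]
        simp
      rw [I1, if_neg hγ, if_neg hg0]
      field_simp
      ring

end

end Vale.Agent.P130
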