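import Mathlib

/-!
# P130: definitions used in the statement
-/

namespace Vale.Agent.P130

open MeasureTheory

/-- `T` is an action of the additive group `Γ` on `X` by `μ`-preserving maps. -/
structure IsMPAction {Γ X : Type} [AddCommGroup Γ] [MeasurableSpace X] (μ : Measure X)
    (T : Γ → X → X) : Prop where
  zero : ∀ x, T 0 x = x
  add : ∀ g h x, T (g + h) x = T g (T h x)
  measurePreserving : ∀ g, MeasurePreserving (T g) μ μ

open Classical in
/-- Simple Haar (Lebesgue) spectrum on the mean-zero space: some `f ∈ L²_0(X, μ)` is such that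
`{f ∘ T_g : g ∈ Γ}` is orthonormal and complete in `L²_0(X, μ)` (a mean-zero square-integrable
function orthogonal to all `f ∘ T_g` vanishes almost everywhere). -/
def SimpleHaarSpectrum {Γ X : Type} [MeasurableSpace X] (μ : Measure X) (T : Γ → X → X) : Prop :=
  ∃ f : X → ℂ, MemLp f 2 μ ∧ ∫ x, f x ∂μ = 0 ∧
    (∀ g h : Γ, ∫ x, f (T g x) * (starRingEnd ℂ) (f (T h x)) ∂μ = if g = h then 1 else 0) ∧
    ∀ u : X → ℂ, MemLp u 2 μ → ∫ x, u x ∂μ = 0 →
      (∀ g : Γ, ∫ x, u x * (starRingEnd ℂ) (f (T g x)) ∂μ = 0) → u =ᵐ[μ] 0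

end Vale.Agent.P130
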