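import Vale.Agent.P130.Compl

/-!
# P130: the blocks `K × K` over finite fields, with the perfect nonlinear functions `L (x y)`
-/

namespace Vale.Agent.P130

open MeasureTheory TopologicalSpace Filter Topology

/-- averages along a surjective homomorphism -/
theorem sum_hom {A B : Type} [AddCommGroup A] [AddCommGroup B] [Fintype A] [Fintype B]
    (θ : A →+ B) (hθ : Function.Surjective θ) (Ψ : B → ℝ) :
    (∑ y, Ψ (θ y)) * Fintype.card B = Fintype.card A * ∑ b, Ψ b := by
  have h1 : ∀ b : B, ∑ y, Ψ (θ y) = ∑ y, Ψ (θ y + b) := by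
    intro b
    obtain ⟨z, hz⟩ := hθ b
    rw [← Equiv.sum_comp (Equiv.addRight z) (fun y => Ψ (θ y))]
    refine Finset.sum_congr rfl fun y _ => ?_
    simp only [Equiv.coe_addRight, map_add, hz]
  have h2 : ∑ _b : B, ∑ y, Ψ (θ y) = ∑ b : B, ∑ y, Ψ (θ y + b) :=
    Finset.sum_congr rfl fun b _ => h1 b
  rw [Finset.sum_const, Finset.card_univ, nsmul_eq_mul] at h2
  rw [mul_comm, h2, Finset.sum_comm]
  have h3 : ∀ y : A, ∑ b : B, Ψ (θ y + b) = ∑ b, Ψ b := fun y =>
    Equiv.sum_comp (Equiv.addLeft (θ y)) Ψ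
  simp_rw [h3]
  rw [Finset.sum_const, Finset.card_univ, nsmul_eq_mul]

theorem exists_surj (F V W : Type) [Field F] [AddCommGroup V] [Module F V] [AddCommGroup W]
    [Module F W] [Module.Finite F V] [Module.Finite F W]
    (h : Module.finrank F W ≤ Module.finrank F V) : ∃ L : V →ₗ[F] W, Function.Surjective L := by
  let eV := (Module.finBasis F V).equivFun
  let eW := (Module.finBasis F W).equivFun
  refine ⟨eW.symm.toLinearMap ∘ₗ LinearMap.funLeft F F (Fin.castLE h) ∘ₗ
    eV.toLinearMap, ?_⟩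
  simp only [LinearMap.coe_comp, LinearEquiv.coe_coe]
  exact eW.symm.surjective.comp ((LinearMap.funLeft_surjective_of_injective _ _ _
    (Fin.castLE_injective h)).comp eV.surjective)

section
variable (p : ℕ) [Fact p.Prime]

/-- the blocks -/
def GG (n : ℕ) : Type := GaloisField p (3 ^ n) × GaloisField p (3 ^ n)

noncomputable instance (n : ℕ) : AddCommGroup (GG p n) :=
  inferInstanceAs (AddCommGroup (GaloisField p (3 ^ n) × GaloisField p (3 ^ n)))

noncomputable instance (n : ℕ) : Module (ZMod p) (GG p n) :=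
  inferInstanceAs (Module (ZMod p) (GaloisField p (3 ^ n) × GaloisField p (3 ^ n)))

instance (n : ℕ) : Finite (GG p n) :=
  inferInstanceAs (Finite (GaloisField p (3 ^ n) × GaloisField p (3 ^ n)))

noncomputable instance (n : ℕ) : Fintype (GG p n) := Fintype.ofFinite _

noncomputable instance (n : ℕ) : DecidableEq (GG p n) := Classical.decEq _

instance (n : ℕ) : TopologicalSpace (GG p n) := ⊥

instance (n : ℕ) : DiscreteTopology (GG p n) := ⟨rfl⟩

instance (n : ℕ) : MeasurableSpace (GG p n) := ⊤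

instance (n : ℕ) : DiscreteMeasurableSpace (GG p n) := ⟨fun _ => trivial⟩

instance (n : ℕ) : Module.Finite (ZMod p) (GG p n) :=
  inferInstanceAs (Module.Finite (ZMod p) (GaloisField p (3 ^ n) × GaloisField p (3 ^ n)))

theorem finrank_GG (n : ℕ) : Module.finrank (ZMod p) (GG p n) = 2 * 3 ^ n := by
  have h : Module.finrank (ZMod p) (GaloisField p (3 ^ n) × GaloisField p (3 ^ n)) = 2 * 3 ^ n := by
    rw [Module.finrank_prod, GaloisField.finrank p (by positivity)]
    ring
  exact h

theorem finrank_HH (n : ℕ) : Module.finrank (ZMod p) (HH (GG p) n) + 1 = 3 ^ n := by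
  have h : Module.finrank (ZMod p) (HH (GG p) n) = ∑ i : Fin n, 2 * 3 ^ (i : ℕ) := by
    rw [Module.finrank_pi_fintype]
    exact Finset.sum_congr rfl fun i _ => finrank_GG p i
  rw [h, Fin.sum_univ_eq_sum_range (fun i => 2 * 3 ^ i)]
  induction n with
  | zero => simp
  | succ n ih =>
    have h2 : Module.finrank (ZMod p) (HH (GG p) n) = ∑ i : Fin n, 2 * 3 ^ (i : ℕ) := by
      rw [Module.finrank_pi_fintype]
      exact Finset.sum_congr rfl fun i _ => finrank_GG p i
    have := ih h2
    rw [Finset.sum_range_succ, pow_succ]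
    omega

theorem exists_L (n : ℕ) : ∃ L : GaloisField p (3 ^ n) →ₗ[ZMod p] HH (GG p) n,
    Function.Surjective L := by
  have h1 : Module.finrank (ZMod p) (HH (GG p) n) ≤
      Module.finrank (ZMod p) (GaloisField p (3 ^ n)) := by
    rw [GaloisField.finrank p (by positivity)]
    have := finrank_HH p n
    omega
  exact exists_surj (ZMod p) _ _ h1

/-- the chosen surjections -/
noncomputable def LL (n : ℕ) : GaloisField p (3 ^ n) →ₗ[ZMod p] HH (GG p) n :=
  Classical.choose (exists_L p n)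

theorem LL_surj (n : ℕ) : Function.Surjective (LL p n) := Classical.choose_spec (exists_L p n)

/-- the perfect nonlinear functions -/
noncomputable def bs (n : ℕ) (y : GG p n) : ∀ i, GG p i := emb n (LL p n (y.1 * y.2))

/-- the derivative -/
noncomputable def th (n : ℕ) (γ : GG p n) : GG p n →+ HH (GG p) n where
  toFun y := -LL p n (y.1 * γ.2 + γ.1 * y.2)
  map_zero' := by
    have h1 : ((0 : GG p n).1 : GaloisField p (3 ^ n)) = 0 := rfl
    have h2 : ((0 : GG p n).2 : GaloisField p (3 ^ n)) = 0 := rfl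
    rw [h1, h2, zero_mul, mul_zero, add_zero, map_zero, neg_zero]
  map_add' a b := by
    have h1 : ((a + b : GG p n).1 : GaloisField p (3 ^ n)) = a.1 + b.1 := rfl
    have h2 : ((a + b : GG p n).2 : GaloisField p (3 ^ n)) = a.2 + b.2 := rfl
    rw [h1, h2, ← neg_add, ← map_add]
    congr 2
    ring

theorem th_surj (n : ℕ) {γ : GG p n} (hγ : γ ≠ 0) : Function.Surjective (th p n γ) := by
  intro b
  obtain ⟨k, hk⟩ := LL_surj p n (-b)
  by_cases h2 : (γ.2 : GaloisField p (3 ^ n)) = 0
  · have h1 : (γ.1 : GaloisField p (3 ^ n)) ≠ 0 := by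
      intro h1
      exact hγ (Prod.ext h1 h2)
    refine ⟨(0, γ.1⁻¹ * k), ?_⟩
    change -LL p n (0 * γ.2 + γ.1 * (γ.1⁻¹ * k)) = b
    rw [zero_mul, zero_add, ← mul_assoc, mul_inv_cancel₀ h1, one_mul, hk, neg_neg]
  · refine ⟨(k * γ.2⁻¹, 0), ?_⟩
    change -LL p n (k * γ.2⁻¹ * γ.2 + γ.1 * 0) = b
    rw [mul_zero, add_zero, mul_assoc, inv_mul_cancel₀ h2, mul_one, hk, neg_neg]

/-- the bent system -/
noncomputable def bentGG : Bent (GG p) where
  s := bs p
  s_zero n y i hi := emb_ge _ hi
  bent n γ hγ ψ hψ x := by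
    have h1 : ∀ y : GG p n, ψ (x + bs p n y - bs p n (y + γ)) =
        ψ ((x + emb n (-LL p n (γ.1 * γ.2))) + emb n (th p n γ y)) := by
      intro y
      congr 1
      have e1 : ((y + γ : GG p n).1 : GaloisField p (3 ^ n)) = y.1 + γ.1 := rfl
      have e2 : ((y + γ : GG p n).2 : GaloisField p (3 ^ n)) = y.2 + γ.2 := rfl
      have e3 : LL p n (y.1 * y.2) = LL p n ((y + γ : GG p n).1 * (y + γ : GG p n).2) +
          (-LL p n (γ.1 * γ.2) + th p n γ y) := by
        change LL p n (y.1 * y.2) = LL p n ((y + γ : GG p n).1 * (y + γ : GG p n).2) +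
          (-LL p n (γ.1 * γ.2) + -LL p n (y.1 * γ.2 + γ.1 * y.2))
        rw [e1, e2, ← map_neg, ← map_neg, ← map_add, ← map_add]
        congr 1
        ring
      unfold bs
      rw [e3, emb_add, emb_add]
      abel
    simp_rw [h1]
    rw [sum_hom (th p n γ) (th_surj p n hγ)
      (fun b => ψ ((x + emb n (-LL p n (γ.1 * γ.2))) + emb n b)), hψ.sum_emb]
  card_ge n := by
    have h1 : Fintype.card (GG p n) = p ^ (3 ^ n) * p ^ (3 ^ n) := by
      rw [← Nat.card_eq_fintype_card]
      have : Nat.card (GaloisField p (3 ^ n) × GaloisField p (3 ^ n)) =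
          p ^ (3 ^ n) * p ^ (3 ^ n) := by
        rw [Nat.card_prod, GaloisField.card p _ (by positivity)]
      exact this
    rw [h1]
    have h2 : 2 ≤ p := (Fact.out : p.Prime).two_le
    have h3 : 2 ≤ p ^ (3 ^ n) := by
      calc 2 ≤ p ^ 1 := by simpa using h2
        _ ≤ p ^ (3 ^ n) := Nat.pow_le_pow_right (by omega) (Nat.one_le_pow _ _ (by norm_num))
    nlinarith

end

end Vale.Agent.P130
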