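import Vale.Agent.P130.Field
import Vale.Agent.P130.Defs

/-!
# P130: the final theorem
-/

namespace Vale.Agent.P130

open MeasureTheory TopologicalSpace Filter Topology

section
variable {G : ℕ → Type} [∀ n, AddCommGroup (G n)] [∀ n, Fintype (G n)] [∀ n, DecidableEq (G n)]
  [∀ n, TopologicalSpace (G n)] [∀ n, DiscreteTopology (G n)]
  [∀ n, MeasurableSpace (G n)] [∀ n, DiscreteMeasurableSpace (G n)]

omit [∀ n, AddCommGroup (G n)] [∀ n, Fintype (G n)] [∀ n, DecidableEq (G n)]
  [∀ n, TopologicalSpace (G n)] [∀ n, DiscreteTopology (G n)]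
  [∀ n, DiscreteMeasurableSpace (G n)] in
theorem int_re {μ : Measure (∀ i, G i)} {f : (∀ i, G i) → ℂ} (hf : Integrable f μ) :
    ∫ x, (f x).re ∂μ = (∫ x, f x ∂μ).re := Complex.reCLM.integral_comp_comm hf

omit [∀ n, AddCommGroup (G n)] [∀ n, Fintype (G n)] [∀ n, DecidableEq (G n)]
  [∀ n, TopologicalSpace (G n)] [∀ n, DiscreteTopology (G n)]
  [∀ n, DiscreteMeasurableSpace (G n)] in
theorem int_im {μ : Measure (∀ i, G i)} {f : (∀ i, G i) → ℂ} (hf : Integrable f μ) :
    ∫ x, (f x).im ∂μ = (∫ x, f x ∂μ).im := Complex.imCLM.integral_comp_comm hf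

omit [∀ n, AddCommGroup (G n)] [∀ n, Fintype (G n)] [∀ n, DecidableEq (G n)]
  [∀ n, TopologicalSpace (G n)] [∀ n, DiscreteTopology (G n)]
  [∀ n, DiscreteMeasurableSpace (G n)] in
theorem int_ofReal {μ : Measure (∀ i, G i)} (f : (∀ i, G i) → ℝ) :
    ∫ x, ((f x : ℝ) : ℂ) ∂μ = ((∫ x, f x ∂μ : ℝ) : ℂ) := integral_ofReal

theorem Bent.integral_ff (D : Bent G) : ∫ x, D.ff x ∂(mu G) = 0 := by
  have hone : MemLp (fun _ : ∀ i, G i => (1 : ℝ)) 2 (mu G) := memLp_const 1
  have h1 : ∀ n, inner ℝ (Fn G n) (hone.toLp _) = 0 := by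
    intro n
    unfold Fn
    rw [inner_toLp]
    simp only [mul_one]
    have h2 : ∀ x, fs n x = D.ps n (D.Ph n x) := fun x => (D.ps_Ph n x).symm
    simp_rw [h2]
    rw [integral_comp_of_mp (D.Ph_mp n) (D.ps_lev n).measurable.aestronglyMeasurable,
      D.integral_ps]
  have h2 : Tendsto (fun n => inner ℝ (Fn G n) (hone.toLp _)) atTop
      (𝓝 (inner ℝ D.ff (hone.toLp _))) := D.tendsto_ff.inner tendsto_const_nhds
  simp_rw [h1] at h2
  have h3 := tendsto_nhds_unique h2 tendsto_const_nhds
  rw [inner_toLp'] at h3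
  simpa using h3

theorem Bent.coe_U (D : Bent G) (g : Gam G) (u : Lp ℝ 2 (mu G)) :
    (D.U g u : (∀ i, G i) → ℝ) =ᵐ[mu G] u ∘ D.T g :=
  Lp.coeFn_compMeasurePreserving u (D.T_mp g)

theorem Bent.spectrum (D : Bent G) : SimpleHaarSpectrum (mu G) D.T := by
  classical
  refine ⟨fun x => ((D.ff x : ℝ) : ℂ), (Lp.memLp D.ff).ofReal, ?_, ?_, ?_⟩
  · change ∫ x, ((D.ff x : ℝ) : ℂ) ∂(mu G) = 0
    rw [int_ofReal (fun x => D.ff x), D.integral_ff]
    simp
  · intro g h
    have h1 : ∀ x, ((D.ff (D.T g x) : ℝ) : ℂ) * (starRingEnd ℂ) ((D.ff (D.T h x) : ℝ) : ℂ) =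
        ((D.ff (D.T g x) * D.ff (D.T h x) : ℝ) : ℂ) := by
      intro x
      rw [Complex.conj_ofReal]
      push_cast
      rfl
    simp_rw [h1]
    rw [int_ofReal (fun x => D.ff (D.T g x) * D.ff (D.T h x))]
    have h2 : ∫ x, D.ff (D.T g x) * D.ff (D.T h x) ∂(mu G) =
        inner ℝ (D.U g D.ff) (D.U h D.ff) := by
      rw [L2.inner_def]
      refine integral_congr_ae ?_
      filter_upwards [D.coe_U g D.ff, D.coe_U h D.ff] with x hx hx'
      rw [hx, hx']
      simp [mul_comm]
    rw [h2, D.orth g h]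
    split_ifs <;> simp
  · intro u hu hu0 hperp
    have hre : MemLp (fun x => (u x).re) 2 (mu G) := hu.re
    have him : MemLp (fun x => (u x).im) 2 (mu G) := hu.im
    have hint : Integrable u (mu G) := hu.integrable (by norm_num)
    -- a real function with the two properties vanishes
    have key : ∀ (v : (∀ i, G i) → ℝ) (hv : MemLp v 2 (mu G)), ∫ x, v x ∂(mu G) = 0 →
        (∀ g : Gam G, ∫ x, v x * D.ff (D.T g x) ∂(mu G) = 0) → v =ᵐ[mu G] 0 := by
      intro v hv hv0 hvp
      have e1 : ∫ x, (hv.toLp v) x ∂(mu G) = 0 := by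
        rw [← hv0]
        exact integral_congr_ae hv.coeFn_toLp
      have e2 : ∀ g : Gam G, inner ℝ (hv.toLp v) (D.U g D.ff) = 0 := by
        intro g
        rw [← hvp g, L2.inner_def]
        refine integral_congr_ae ?_
        filter_upwards [hv.coeFn_toLp, D.coe_U g D.ff] with x hx hx'
        rw [hx, hx']
        simp [mul_comm]
      exact hv.coeFn_toLp.symm.trans (D.compl (hv.toLp v) e1 e2)
    have hprod : ∀ g : Gam G, Integrable
        (fun x => u x * (starRingEnd ℂ) ((D.ff (D.T g x) : ℝ) : ℂ)) (mu G) := by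
      intro g
      have hf : MemLp (fun x => (starRingEnd ℂ) ((D.ff (D.T g x) : ℝ) : ℂ)) 2 (mu G) := by
        have e1 : MemLp (fun x => ((D.ff (D.T g x) : ℝ) : ℂ)) 2 (mu G) :=
          ((Lp.memLp D.ff).comp_measurePreserving (D.T_mp g)).ofReal
        have e2 : (fun x => (starRingEnd ℂ) ((D.ff (D.T g x) : ℝ) : ℂ)) =
            fun x => ((D.ff (D.T g x) : ℝ) : ℂ) := by
          funext x
          rw [Complex.conj_ofReal]
        rw [e2]
        exact e1
      exact MemLp.integrable_mul hu hf
    have h1 : (fun x => (u x).re) =ᵐ[mu G] 0 := by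
      apply key _ hre
      · have := congrArg Complex.re hu0
        rw [← int_re hint] at this
        simpa using this
      · intro g
        have h2 := congrArg Complex.re (hperp g)
        rw [← int_re (hprod g)] at h2
        rw [Complex.zero_re] at h2
        rw [← h2]
        refine integral_congr_ae (Eventually.of_forall fun x => ?_)
        simp [Complex.mul_re]
    have h2 : (fun x => (u x).im) =ᵐ[mu G] 0 := by
      apply key _ him
      · have := congrArg Complex.im hu0
        rw [← int_im hint] at this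
        simpa using this
      · intro g
        have h2 := congrArg Complex.im (hperp g)
        rw [← int_im (hprod g)] at h2
        rw [Complex.zero_im] at h2
        rw [← h2]
        refine integral_congr_ae (Eventually.of_forall fun x => ?_)
        simp [Complex.mul_im]
    filter_upwards [h1, h2] with x hx hx'
    exact Complex.ext hx hx'

/-- no atoms -/
theorem Bent.noAtoms (D : Bent G) (x : ∀ i, G i) : mu G {x} = 0 := by
  have hinj : ∀ n, Function.Injective (fun a : HH G n => x + emb n a) := by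
    intro n a b hab
    have h1 : emb n a = emb n b := add_left_cancel hab
    funext i
    have h2 := congrFun h1 i
    rw [emb_lt a i.2, emb_lt b i.2] at h2
    exact h2
  have hall : ∀ y : ∀ i, G i, mu G {x + y} = mu G {x} := by
    intro y
    have h1 := measure_preimage_add_right (mu G) y {x + y}
    have h2 : (fun z : ∀ i, G i => z + y) ⁻¹' {x + y} = {x} := by
      ext z
      simp
    rw [h2] at h1
    exact h1.symm
  have hle : ∀ n : ℕ, (Fintype.card (HH G n) : ENNReal) * mu G {x} ≤ 1 := by
    intro n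
    have h1 : mu G (⋃ a ∈ (Finset.univ : Finset (HH G n)), {x + emb n a}) =
        ∑ a : HH G n, mu G {x + emb n a} := by
      apply measure_biUnion_finset
      · intro a _ b _ hab
        rw [Function.onFun, Set.disjoint_singleton]
        exact fun h => hab (hinj n h)
      · intro a _
        exact measurableSet_singleton _
    have h2 : ∑ a : HH G n, mu G {x + emb n a} = (Fintype.card (HH G n) : ENNReal) * mu G {x} := by
      simp_rw [hall]
      rw [Finset.sum_const, Finset.card_univ, nsmul_eq_mul]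
    rw [← h2, ← h1]
    exact prob_le_one
  by_contra hne
  have hlt : mu G {x} ≠ ⊤ := measure_ne_top _ _
  obtain ⟨n, hn⟩ := ENNReal.exists_nat_mul_gt hne (ENNReal.one_ne_top)
  have h3 : n ≤ Fintype.card (HH G n) := by
    have h4 := card_HH_ge D n
    have h5 : (n : ℝ) ≤ 4 ^ n := by exact_mod_cast (Nat.lt_pow_self (by norm_num)).le
    exact_mod_cast h5.trans h4
  have h4 : (n : ENNReal) * mu G {x} ≤ 1 :=
    (mul_le_mul_left (by exact_mod_cast h3) _).trans (hle n)
  exact absurd hn (not_lt.2 h4)

end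

/-- a countably infinite vector space over `ZMod p` -/
theorem exists_equiv (p : ℕ) [Fact p.Prime] (V : Type) [AddCommGroup V] [Module (ZMod p) V]
    [Countable V] [Infinite V] : Nonempty ((ℕ →₀ ZMod p) ≃+ V) := by
  classical
  let b := Module.Basis.ofVectorSpace (ZMod p) V
  have hc : Countable (Module.Basis.ofVectorSpaceIndex (ZMod p) V) := Subtype.countable
  have hi : Infinite (Module.Basis.ofVectorSpaceIndex (ZMod p) V) := by
    by_contra hfin
    rw [not_infinite_iff_finite] at hfin
    have h1 : Finite (Module.Basis.ofVectorSpaceIndex (ZMod p) V →₀ ZMod p) :=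
      Finite.of_injective (fun f => (f : Module.Basis.ofVectorSpaceIndex (ZMod p) V → ZMod p))
        DFunLike.coe_injective
    have h2 : Finite V := Finite.of_equiv _ b.repr.toEquiv.symm
    exact not_finite V
  obtain ⟨hd⟩ := nonempty_denumerable (Module.Basis.ofVectorSpaceIndex (ZMod p) V)
  let e := Denumerable.eqv (Module.Basis.ofVectorSpaceIndex (ZMod p) V)
  exact ⟨((Finsupp.domLCongr (R := ZMod p) (M := ZMod p) e.symm).trans b.repr.symm).toAddEquiv⟩

section
variable (p : ℕ) [Fact p.Prime]

theorem Gam_torsion (g : Gam (GG p)) : p • g = 0 := by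
  apply Subtype.ext
  funext i
  rw [AddSubgroup.coe_nsmul, Pi.smul_apply]
  have : (p : ZMod p) • (g.1 i : GG p i) = 0 := by simp
  rw [Nat.cast_smul_eq_nsmul] at this
  exact this

instance : Countable (Gam (GG p)) := by
  have h : Function.Surjective (fun x : Σ n : ℕ, HH (GG p) n => gm x.1 x.2) := by
    intro g
    refine ⟨⟨lv g, rs (lv g) g.1⟩, Subtype.ext ?_⟩
    exact emb_rs (lv_spec g)
  exact h.countable

instance : Infinite (Gam (GG p)) := by
  classical
  have hne : ∀ n, ∃ y : GG p n, y ≠ 0 := fun n => by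
    have : Nontrivial (GG p n) :=
      inferInstanceAs (Nontrivial (GaloisField p (3 ^ n) × GaloisField p (3 ^ n)))
    exact exists_ne 0
  choose y hy using hne
  refine Infinite.of_injective (fun n : ℕ => (⟨Pi.single n (y n), n + 1, fun i hi =>
    Pi.single_eq_of_ne (by omega) _⟩ : Gam (GG p))) ?_
  intro n m hnm
  by_contra hne
  have h0 : (Pi.single n (y n) : ∀ i, GG p i) = Pi.single m (y m) := congrArg Subtype.val hnm
  have h1 : (Pi.single n (y n) : ∀ i, GG p i) n = (Pi.single m (y m) : ∀ i, GG p i) n := by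
    rw [h0]
  rw [Pi.single_eq_same, Pi.single_eq_of_ne hne] at h1
  exact hy n h1

/-- the final theorem -/
theorem main : ∃ (X : Type) (_ : MeasurableSpace X) (_ : StandardBorelSpace X) (μ : Measure X)
    (_ : IsProbabilityMeasure μ) (T : (ℕ →₀ ZMod p) → X → X),
    (∀ x, μ {x} = 0) ∧ IsMPAction μ T ∧ SimpleHaarSpectrum μ T := by
  classical
  let _ : Module (ZMod p) (Gam (GG p)) := AddCommGroup.zmodModule (Gam_torsion p)
  obtain ⟨e⟩ := exists_equiv p (Gam (GG p))
  let D := bentGG p
  refine ⟨∀ i, GG p i, inferInstance, inferInstance, mu (GG p), inferInstance,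
    fun g => D.T (e g), D.noAtoms, ⟨?_, ?_, ?_⟩, ?_⟩
  · intro x
    rw [map_zero]
    exact D.T_zero x
  · intro g h x
    rw [map_add]
    exact D.T_add _ _ x
  · intro g
    exact D.T_mp _
  · obtain ⟨f, h1, h2, h3, h4⟩ := D.spectrum
    refine ⟨f, h1, h2, ?_, ?_⟩
    · intro g h
      rw [h3 (e g) (e h)]
      by_cases hgh : g = h
      · rw [if_pos hgh, if_pos (by rw [hgh])]
      · rw [if_neg hgh, if_neg fun h' => hgh (e.injective h')]
    · intro u hu hu0 hp
      refine h4 u hu hu0 fun g => ?_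
      have := hp (e.symm g)
      simp only [AddEquiv.apply_symm_apply] at this
      exact this

end

end Vale.Agent.P130
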