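import Vale.Agent.P130.Corr

/-!
# P130: orthonormality and completeness in `L²`
-/

namespace Vale.Agent.P130

open MeasureTheory TopologicalSpace Filter Topology

section
variable {G : ℕ → Type} [∀ n, AddCommGroup (G n)] [∀ n, Fintype (G n)] [∀ n, DecidableEq (G n)]
  [∀ n, TopologicalSpace (G n)] [∀ n, DiscreteTopology (G n)]
  [∀ n, MeasurableSpace (G n)] [∀ n, DiscreteMeasurableSpace (G n)]

/-- inner product of representatives -/
theorem inner_toLp {a b : (∀ i, G i) → ℝ} (ha : MemLp a 2 (mu G)) (hb : MemLp b 2 (mu G)) :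
    inner ℝ (ha.toLp a) (hb.toLp b) = ∫ x, a x * b x ∂(mu G) := by
  rw [L2.inner_def]
  refine integral_congr_ae ?_
  filter_upwards [ha.coeFn_toLp, hb.coeFn_toLp] with x h1 h2
  rw [h1, h2]
  simp [mul_comm]

theorem inner_toLp' (u : Lp ℝ 2 (mu G)) {b : (∀ i, G i) → ℝ} (hb : MemLp b 2 (mu G)) :
    inner ℝ u (hb.toLp b) = ∫ x, u x * b x ∂(mu G) := by
  rw [L2.inner_def]
  refine integral_congr_ae ?_
  filter_upwards [hb.coeFn_toLp] with x h2
  rw [h2]
  simp [mul_comm]

/-- the partial sums -/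
noncomputable def fs (n : ℕ) (x : ∀ i, G i) : ℝ := ∑ i ∈ Finset.range n, cc i (x i)

omit [∀ n, TopologicalSpace (G n)] [∀ n, DiscreteTopology (G n)]
  [∀ n, MeasurableSpace (G n)] [∀ n, DiscreteMeasurableSpace (G n)] in
theorem fs_lev (n : ℕ) : Lev n (fs n : (∀ i, G i) → ℝ) := by
  intro x y hxy
  unfold fs
  refine Finset.sum_congr rfl fun i hi => ?_
  rw [hxy i (Finset.mem_range.1 hi)]

/-- partial sums in `L²` -/
noncomputable def Fn (G : ℕ → Type) [∀ n, AddCommGroup (G n)] [∀ n, Fintype (G n)]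
    [∀ n, DecidableEq (G n)] [∀ n, TopologicalSpace (G n)] [∀ n, DiscreteTopology (G n)]
    [∀ n, MeasurableSpace (G n)] [∀ n, DiscreteMeasurableSpace (G n)] (n : ℕ) :
    Lp ℝ 2 (mu G) := ((fs_lev n).memLp 2).toLp (fs n)

theorem norm_Fn_succ (D : Bent G) (n : ℕ) : ‖Fn G (n + 1) - Fn G n‖ ≤ (1 / 2 : ℝ) ^ n := by
  have hc : Lev (n + 1) fun x : ∀ i, G i => cc n (x n) := by
    intro x y hxy
    simp only
    rw [hxy n (Nat.lt_succ_self n)]
  have h1 : Fn G (n + 1) - Fn G n = (hc.memLp 2).toLp _ := by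
    unfold Fn
    rw [← MemLp.toLp_sub]
    congr 1
    funext x
    simp only [Pi.sub_apply, fs, Finset.sum_range_succ]
    ring
  have h2 : ‖Fn G (n + 1) - Fn G n‖ ^ 2 ≤ ((1 / 2 : ℝ) ^ n) ^ 2 := by
    rw [← real_inner_self_eq_norm_sq, h1, inner_toLp,
      integral_coord n (fun y => cc n y * cc n y)]
    have h3 := sum_cc_mul n (0 : G n)
    simp only [add_zero, if_true] at h3
    rw [h3]
    have h4 : ∀ m, 4 ^ m ≤ Fintype.card (HH G m) := by
      intro m
      induction m with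
      | zero => simp [card_HH_zero]
      | succ m ih =>
        rw [card_HH_succ, pow_succ]
        exact Nat.mul_le_mul ih (D.card_ge m)
    have h5 : (4 : ℝ) ^ n ≤ Fintype.card (HH G n) := by exact_mod_cast h4 n
    have h6 : (1 : ℝ) - 1 / Fintype.card (G n) ≤ 1 := by
      have : (0 : ℝ) ≤ 1 / Fintype.card (G n) := by positivity
      linarith
    calc (1 - 1 / (Fintype.card (G n) : ℝ)) / Fintype.card (HH G n)
        ≤ 1 / (4 : ℝ) ^ n := div_le_div₀ (by norm_num) h6 (by positivity) h5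
      _ = ((1 / 2 : ℝ) ^ n) ^ 2 := by
        rw [← pow_mul, mul_comm n 2, pow_mul, one_div, ← inv_pow]
        norm_num
  exact le_of_sq_le_sq h2 (by positivity)

theorem card_HH_ge (D : Bent G) (m : ℕ) : (4 : ℝ) ^ m ≤ Fintype.card (HH G m) := by
  have h4 : 4 ^ m ≤ Fintype.card (HH G m) := by
    induction m with
    | zero => simp [card_HH_zero]
    | succ m ih =>
      rw [card_HH_succ, pow_succ]
      exact Nat.mul_le_mul ih (D.card_ge m)
  exact_mod_cast h4

theorem exists_ff (D : Bent G) : ∃ ff : Lp ℝ 2 (mu G), Tendsto (Fn G) atTop (𝓝 ff) := by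
  have h : CauchySeq (Fn G) := by
    refine cauchySeq_of_le_geometric (1 / 2) 1 (by norm_num) fun n => ?_
    rw [dist_comm, dist_eq_norm, one_mul]
    exact norm_Fn_succ D n
  exact cauchySeq_tendsto_of_complete h

/-- the generating vector -/
noncomputable def Bent.ff (D : Bent G) : Lp ℝ 2 (mu G) := Classical.choose (exists_ff D)

theorem Bent.tendsto_ff (D : Bent G) : Tendsto (Fn G) atTop (𝓝 D.ff) :=
  Classical.choose_spec (exists_ff D)

/-- the Koopman operators -/
noncomputable def Bent.U (D : Bent G) (g : Gam G) : Lp ℝ 2 (mu G) →ₗᵢ[ℝ] Lp ℝ 2 (mu G) :=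
  Lp.compMeasurePreservingₗᵢ ℝ (D.T g) (D.T_mp g)

theorem Bent.U_toLp (D : Bent G) (g : Gam G) {a : (∀ i, G i) → ℝ} (ha : MemLp a 2 (mu G)) :
    D.U g (ha.toLp a) = (ha.comp_measurePreserving (D.T_mp g)).toLp (a ∘ D.T g) :=
  Lp.toLp_compMeasurePreserving ha (D.T_mp g)

theorem Bent.U_add (D : Bent G) (g h : Gam G) (u : Lp ℝ 2 (mu G)) :
    D.U (g + h) u = D.U h (D.U g u) := by
  have h1 := Lp.compMeasurePreserving_comp_apply u (D.T_mp g) (D.T_mp h)
  have h2 : D.T (g + h) = D.T g ∘ D.T h := funext fun x => D.T_add g h x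
  change Lp.compMeasurePreserving (D.T (g + h)) (D.T_mp (g + h)) u =
    Lp.compMeasurePreserving (D.T h) (D.T_mp h) (Lp.compMeasurePreserving (D.T g) (D.T_mp g) u)
  rw [← h1]
  congr 2

open Classical in
theorem Bent.inner_Fn (D : Bent G) (g : Gam G) {n : ℕ} (hn : ∀ i, n ≤ i → g.1 i = 0) :
    inner ℝ (D.U g (Fn G n)) (Fn G n) =
      (if g = 0 then 1 else 0) - 1 / (Fintype.card (HH G n) : ℝ) := by
  have h1 : D.U g (Fn G n) =
      ((((fs_lev n).memLp 2).comp_measurePreserving (D.T_mp g)).toLp (fs n ∘ D.T g)) :=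
    D.U_toLp g _
  rw [h1]
  unfold Fn
  rw [inner_toLp]
  have h2 : ∀ x, (fs n ∘ D.T g) x * fs n x =
      D.ps n (D.Ph n x + g.1) * D.ps n (D.Ph n x) := by
    intro x
    have e1 : fs n (D.T g x) = D.ps n (D.Ph n (D.T g x)) := (D.ps_Ph n _).symm
    have e2 : fs n x = D.ps n (D.Ph n x) := (D.ps_Ph n x).symm
    have e3 : D.Ph n (D.T g x) = D.Ph n x + g.1 := by
      rw [D.T_eq g hn]
      unfold Bent.Tn
      rw [Equiv.apply_symm_apply]
    rw [Function.comp_apply, e1, e2, e3]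
  simp_rw [h2]
  have hl := D.ps_lev n
  have hL : Lev n fun z => D.ps n (z + g.1) * D.ps n z := by
    intro x y hxy
    have e1 : D.ps n (x + g.1) = D.ps n (y + g.1) := (hl.add_right g.1) x y hxy
    simp only
    rw [e1, hl x y hxy]
  rw [integral_comp_of_mp (D.Ph_mp n) hL.measurable.aestronglyMeasurable
    (Ψ := fun z => D.ps n (z + g.1) * D.ps n z), D.corr n g.1 hn]
  congr 1
  by_cases h : g = 0
  · rw [if_pos h, if_pos (by rw [h]; rfl)]
  · rw [if_neg h, if_neg]
    intro h'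
    exact h (Subtype.ext h')

open Classical in
theorem Bent.inner_ff (D : Bent G) (g : Gam G) :
    inner ℝ (D.U g D.ff) D.ff = (if g = 0 then (1 : ℝ) else 0) := by
  have h1 : Tendsto (fun n => inner ℝ (D.U g (Fn G n)) (Fn G n)) atTop
      (𝓝 (inner ℝ (D.U g D.ff) D.ff)) :=
    (((D.U g).continuous.tendsto _).comp D.tendsto_ff).inner D.tendsto_ff
  have h2 : Tendsto (fun n => (if g = 0 then (1 : ℝ) else 0) -
      1 / (Fintype.card (HH G n) : ℝ)) atTop (𝓝 ((if g = 0 then (1 : ℝ) else 0) - 0)) := by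
    refine tendsto_const_nhds.sub ?_
    refine squeeze_zero (fun n => by positivity) (fun n => ?_)
      (tendsto_pow_atTop_nhds_zero_of_lt_one (r := (1 / 4 : ℝ)) (by norm_num) (by norm_num))
    rw [one_div_pow]
    exact one_div_le_one_div_of_le (by positivity) (card_HH_ge D n)
  rw [sub_zero] at h2
  refine tendsto_nhds_unique h1 (h2.congr' ?_)
  filter_upwards [eventually_ge_atTop (lv g)] with n hn
  exact (D.inner_Fn g fun i hi => lv_spec g i (hn.trans hi)).symm

open Classical in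
/-- orthonormality -/
theorem Bent.orth (D : Bent G) (g h : Gam G) :
    inner ℝ (D.U g D.ff) (D.U h D.ff) = (if g = h then (1 : ℝ) else 0) := by
  have h1 : D.U g D.ff = D.U h (D.U (g - h) D.ff) := by
    rw [← D.U_add, sub_add_cancel]
  rw [h1, (D.U h).inner_map_map, D.inner_ff]
  by_cases h2 : g = h
  · rw [if_pos h2, if_pos (sub_eq_zero.2 h2)]
  · rw [if_neg h2, if_neg (sub_ne_zero.2 h2)]

/-- element of the group -/
def gm (n : ℕ) (a : HH G n) : Gam G := ⟨emb n a, n, fun _ hi => emb_ge a hi⟩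

theorem Bent.U_tail (D : Bent G) (n : ℕ) (a : HH G n) :
    D.U (gm n a) (D.ff - Fn G n) = D.ff - Fn G n := by
  have h1 : ∀ m, n ≤ m → D.U (gm n a) (Fn G m - Fn G n) = Fn G m - Fn G n := by
    intro m hm
    have h2 : Fn G m - Fn G n =
        (((fs_lev m).memLp 2).sub ((fs_lev n).memLp 2)).toLp (fs m - fs n) := by
      unfold Fn
      rw [MemLp.toLp_sub]
    rw [h2, D.U_toLp]
    congr 1
    funext x
    have h3 : ∀ x : ∀ i, G i, (fs m - fs n : (∀ i, G i) → ℝ) x =
        ∑ i ∈ Finset.Ico n m, cc i (x i) := by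
      intro x
      rw [Pi.sub_apply, fs, fs, Finset.sum_Ico_eq_sub _ hm]
    rw [Function.comp_apply, h3, h3]
    refine Finset.sum_congr rfl fun i hi => ?_
    have h4 : D.T (gm n a) x i = x i := by
      rw [D.T_eq (gm n a) (n := n) (fun i hi => emb_ge a hi)]
      exact D.Tn_ge n (emb n a) (fun i hi => emb_ge a hi) x (Finset.mem_Ico.1 hi).1
    rw [h4]
  have h2 : Tendsto (fun m => Fn G m - Fn G n) atTop (𝓝 (D.ff - Fn G n)) :=
    D.tendsto_ff.sub_const _
  have h3 : Tendsto (fun m => D.U (gm n a) (Fn G m - Fn G n)) atTop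
      (𝓝 (D.U (gm n a) (D.ff - Fn G n))) := ((D.U (gm n a)).continuous.tendsto _).comp h2
  refine tendsto_nhds_unique h3 (h2.congr' ?_)
  filter_upwards [eventually_ge_atTop n] with m hm
  exact (h1 m hm).symm

end

end Vale.Agent.P130
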