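import Vale.Agent.P130.Basic

/-!
# P130: the towers and the action
-/

namespace Vale.Agent.P130

open MeasureTheory TopologicalSpace

/-- a sequence of perfect nonlinear functions `s n : G n → G 0 × .. × G (n-1)` -/
structure Bent (G : ℕ → Type) [∀ n, AddCommGroup (G n)] [∀ n, Fintype (G n)] where
  s : ∀ n, G n → ∀ i, G i
  s_zero : ∀ n y i, n ≤ i → s n y i = 0
  bent : ∀ n (γ : G n), γ ≠ 0 → ∀ ψ : (∀ i, G i) → ℝ, Lev n ψ → ∀ x,
    (∑ y, ψ (x + s n y - s n (y + γ))) * Fintype.card (HH G n) =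
      Fintype.card (G n) * ∑ a : HH G n, ψ (emb n a)
  card_ge : ∀ n, 4 ≤ Fintype.card (G n)

section
variable {G : ℕ → Type} [∀ n, AddCommGroup (G n)] [∀ n, Fintype (G n)]

/-- the shear -/
def Bent.sh (D : Bent G) (n : ℕ) : (∀ i, G i) ≃ (∀ i, G i) where
  toFun z := z + D.s n (z n)
  invFun z := z - D.s n (z n)
  left_inv z := by
    have h : (z + D.s n (z n)) n = z n := by
      rw [Pi.add_apply, D.s_zero n _ n le_rfl, add_zero]
    simp only [h]
    abel
  right_inv z := by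
    have h : (z - D.s n (z n)) n = z n := by
      rw [Pi.sub_apply, D.s_zero n _ n le_rfl, sub_zero]
    simp only [h]
    abel

theorem Bent.sh_apply (D : Bent G) (n : ℕ) (z : ∀ i, G i) : D.sh n z = z + D.s n (z n) := rfl

theorem Bent.sh_symm_apply (D : Bent G) (n : ℕ) (z : ∀ i, G i) :
    (D.sh n).symm z = z - D.s n (z n) := rfl

/-- the position maps -/
def Bent.Ph (D : Bent G) : ℕ → ((∀ i, G i) ≃ (∀ i, G i))
  | 0 => Equiv.refl _
  | n + 1 => (D.Ph n).trans (D.sh n)

theorem Bent.Ph_succ (D : Bent G) (n : ℕ) (x : ∀ i, G i) :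
    D.Ph (n + 1) x = D.sh n (D.Ph n x) := rfl

theorem Bent.Ph_succ_symm (D : Bent G) (n : ℕ) (x : ∀ i, G i) :
    (D.Ph (n + 1)).symm x = (D.Ph n).symm ((D.sh n).symm x) := rfl

theorem Bent.Ph_ge (D : Bent G) (n : ℕ) (x : ∀ i, G i) {i : ℕ} (h : n ≤ i) :
    D.Ph n x i = x i := by
  induction n generalizing i with
  | zero => rfl
  | succ n ih =>
    rw [D.Ph_succ, D.sh_apply, Pi.add_apply, D.s_zero n _ i (by omega), add_zero, ih (by omega)]

theorem Bent.Ph_symm_ge (D : Bent G) (n : ℕ) (x : ∀ i, G i) {i : ℕ} (h : n ≤ i) :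
    (D.Ph n).symm x i = x i := by
  have := D.Ph_ge n ((D.Ph n).symm x) h
  rw [Equiv.apply_symm_apply] at this
  exact this.symm

/-- the action at level `n` -/
def Bent.Tn (D : Bent G) (n : ℕ) (g : ∀ i, G i) (x : ∀ i, G i) : ∀ i, G i :=
  (D.Ph n).symm (D.Ph n x + g)

theorem Bent.Tn_succ (D : Bent G) (n : ℕ) (g : ∀ i, G i) (hg : g n = 0) :
    D.Tn (n + 1) g = D.Tn n g := by
  funext x
  unfold Bent.Tn
  rw [D.Ph_succ, D.Ph_succ_symm, D.sh_apply, D.sh_symm_apply]
  congr 1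
  have h : (D.Ph n x + D.s n (D.Ph n x n) + g) n = D.Ph n x n := by
    rw [Pi.add_apply, Pi.add_apply, D.s_zero n _ n le_rfl, add_zero, hg, add_zero]
  rw [h]
  abel

theorem Bent.Tn_eq (D : Bent G) {n m : ℕ} (h : n ≤ m) (g : ∀ i, G i)
    (hg : ∀ i, n ≤ i → g i = 0) : D.Tn m g = D.Tn n g := by
  induction m, h using Nat.le_induction with
  | base => rfl
  | succ m hm ih => rw [D.Tn_succ m g (hg m hm), ih]

theorem Bent.Tn_ge (D : Bent G) (n : ℕ) (g : ∀ i, G i) (hg : ∀ i, n ≤ i → g i = 0)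
    (x : ∀ i, G i) {i : ℕ} (h : n ≤ i) : D.Tn n g x i = x i := by
  unfold Bent.Tn
  rw [D.Ph_symm_ge n _ h, Pi.add_apply, hg i h, add_zero, D.Ph_ge n x h]

theorem Bent.Tn_add (D : Bent G) (n : ℕ) (g h : ∀ i, G i) (x : ∀ i, G i) :
    D.Tn n (g + h) x = D.Tn n g (D.Tn n h x) := by
  unfold Bent.Tn
  rw [Equiv.apply_symm_apply]
  congr 1
  abel

theorem Bent.Tn_zero (D : Bent G) (n : ℕ) (x : ∀ i, G i) : D.Tn n 0 x = x := by
  unfold Bent.Tn
  rw [add_zero, Equiv.symm_apply_apply]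

/-- the group of finitely supported sequences -/
def Gam (G : ℕ → Type) [∀ n, AddCommGroup (G n)] : AddSubgroup (∀ i, G i) where
  carrier := {g | ∃ n, ∀ i, n ≤ i → g i = 0}
  zero_mem' := ⟨0, fun _ _ => rfl⟩
  add_mem' := by
    rintro a b ⟨n, hn⟩ ⟨m, hm⟩
    refine ⟨max n m, fun i hi => ?_⟩
    rw [Pi.add_apply, hn i (le_trans (le_max_left _ _) hi),
      hm i (le_trans (le_max_right _ _) hi), add_zero]
  neg_mem' := by
    rintro a ⟨n, hn⟩
    exact ⟨n, fun i hi => by rw [Pi.neg_apply, hn i hi, neg_zero]⟩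

/-- level of an element of the group -/
noncomputable def lv (g : Gam G) : ℕ := Classical.choose g.2

omit [∀ n, Fintype (G n)] in
theorem lv_spec (g : Gam G) : ∀ i, lv g ≤ i → g.1 i = 0 := Classical.choose_spec g.2

/-- the action -/
noncomputable def Bent.T (D : Bent G) (g : Gam G) : (∀ i, G i) → ∀ i, G i := D.Tn (lv g) g.1

theorem Bent.T_eq (D : Bent G) (g : Gam G) {n : ℕ} (hn : ∀ i, n ≤ i → g.1 i = 0) :
    D.T g = D.Tn n g.1 := by
  unfold Bent.T
  rw [← D.Tn_eq (le_max_left (lv g) n) g.1 (lv_spec g), D.Tn_eq (le_max_right (lv g) n) g.1 hn]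

theorem Bent.T_zero (D : Bent G) (x : ∀ i, G i) : D.T 0 x = x := by
  rw [D.T_eq (n := 0) 0 (fun _ _ => rfl)]
  exact D.Tn_zero 0 x

theorem Bent.T_add (D : Bent G) (g h : Gam G) (x : ∀ i, G i) :
    D.T (g + h) x = D.T g (D.T h x) := by
  have hg : ∀ i, max (lv g) (lv h) ≤ i → g.1 i = 0 :=
    fun i hi => lv_spec g i (le_trans (le_max_left _ _) hi)
  have hh : ∀ i, max (lv g) (lv h) ≤ i → h.1 i = 0 :=
    fun i hi => lv_spec h i (le_trans (le_max_right _ _) hi)
  rw [D.T_eq g hg, D.T_eq h hh, D.T_eq (g + h) (n := max (lv g) (lv h)) ?_]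
  · exact D.Tn_add _ _ _ x
  · intro i hi
    rw [AddSubgroup.coe_add, Pi.add_apply, hg i hi, hh i hi, add_zero]

variable [∀ n, TopologicalSpace (G n)] [∀ n, DiscreteTopology (G n)]
  [∀ n, MeasurableSpace (G n)] [∀ n, DiscreteMeasurableSpace (G n)]

/-- a shear preserves the measure -/
theorem shear_mp (n : ℕ) (σ : G n → ∀ i, G i) (hσ : ∀ y, σ y n = 0) :
    MeasurePreserving (fun z : ∀ i, G i => z + σ (z n)) (mu G) (mu G) := by
  have hmeas : Measurable (fun z : ∀ i, G i => z + σ (z n)) := by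
    refine measurable_pi_lambda _ fun i => ?_
    have h1 : Measurable fun z : ∀ i, G i => z i := measurable_pi_apply i
    have h2 : Measurable fun z : ∀ i, G i => σ (z n) i := by
      have h3 : Measurable fun y : G n => σ y i := Measurable.of_discrete
      exact h3.comp (measurable_pi_apply n)
    exact h1.add h2
  refine ⟨hmeas, ?_⟩
  ext A hA
  rw [Measure.map_apply hmeas hA]
  have hy : ∀ y : G n, MeasurableSet {z : ∀ i, G i | z n = y} := fun y =>
    (measurable_pi_apply n) (measurableSet_singleton y)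
  have key : ∀ B : Set (∀ i, G i), MeasurableSet B →
      mu G B = ∑ y : G n, mu G (B ∩ {z | z n = y}) := by
    intro B hB
    rw [← measure_biUnion_finset]
    · congr 1
      ext z
      simp
    · intro y _ y' _ hyy
      rw [Function.onFun, Set.disjoint_left]
      rintro z ⟨_, h1⟩ ⟨_, h2⟩
      exact hyy (h1.symm.trans h2)
    · intro y _
      exact hB.inter (hy y)
  rw [key _ (hmeas hA), key A hA]
  refine Finset.sum_congr rfl fun y _ => ?_
  have h1 : (fun z : ∀ i, G i => z + σ (z n)) ⁻¹' A ∩ {z | z n = y} =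
      (fun z : ∀ i, G i => z + σ y) ⁻¹' (A ∩ {z | z n = y}) := by
    ext z
    simp only [Set.mem_inter_iff, Set.mem_preimage, Set.mem_setOf_eq, Pi.add_apply, hσ, add_zero]
    constructor
    · rintro ⟨h1, h2⟩
      rw [h2] at h1
      exact ⟨h1, h2⟩
    · rintro ⟨h1, h2⟩
      rw [h2]
      exact ⟨h1, rfl⟩
  rw [h1]
  exact measure_preimage_add_right (mu G) (σ y) _

theorem Bent.sh_mp (D : Bent G) (n : ℕ) : MeasurePreserving (D.sh n) (mu G) (mu G) :=
  shear_mp n (D.s n) fun y => D.s_zero n y n le_rfl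

theorem Bent.sh_symm_mp (D : Bent G) (n : ℕ) : MeasurePreserving (D.sh n).symm (mu G) (mu G) := by
  have h := shear_mp (G := G) n (fun y => -D.s n y) fun y => by
    rw [Pi.neg_apply, D.s_zero n y n le_rfl, neg_zero]
  have h2 : (fun z : ∀ i, G i => z + -D.s n (z n)) = (D.sh n).symm := by
    funext z
    rw [D.sh_symm_apply, sub_eq_add_neg]
  rw [h2] at h
  exact h

theorem Bent.Ph_mp (D : Bent G) (n : ℕ) : MeasurePreserving (D.Ph n) (mu G) (mu G) := by
  induction n with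
  | zero => exact MeasurePreserving.id _
  | succ n ih => exact (D.sh_mp n).comp ih

theorem Bent.Ph_symm_mp (D : Bent G) (n : ℕ) :
    MeasurePreserving (D.Ph n).symm (mu G) (mu G) := by
  induction n with
  | zero => exact MeasurePreserving.id _
  | succ n ih => exact ih.comp (D.sh_symm_mp n)

theorem Bent.Tn_mp (D : Bent G) (n : ℕ) (g : ∀ i, G i) :
    MeasurePreserving (D.Tn n g) (mu G) (mu G) :=
  (D.Ph_symm_mp n).comp ((measurePreserving_add_right (mu G) g).comp (D.Ph_mp n))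

theorem Bent.T_mp (D : Bent G) (g : Gam G) : MeasurePreserving (D.T g) (mu G) (mu G) :=
  D.Tn_mp _ _

end

end Vale.Agent.P130
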